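import Vale.Agent.P096.Final

namespace Vale.Agent.Results.P096.Full

universe u

/-- The Hausdorff distance of the parts of `S` and `T` in the closed unit ball. -/
noncomputable def ballDist {B : Type*} [NormedRing B] (S T : Set B) : ℝ :=
  Metric.hausdorffDist (S ∩ Metric.closedBall 0 1) (T ∩ Metric.closedBall 0 1)

/-- `S` is carried onto `T` by a unitary at distance less than `ε` from the unit. -/
def NearConj {B : Type*} [NormedRing B] [StarRing B] (ε : ℝ) (S T : Set B) : Prop :=
  ∃ u ∈ unitary B, ‖u - 1‖ < ε ∧ (fun x => u * x * star u) '' S = T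

/-- The strong Kadison-Kastler conjecture. -/
theorem result (ε : ℝ) (hε : 0 < ε) : ∃ δ : ℝ, 0 < δ ∧
    ∀ (H : Type u) [NormedAddCommGroup H] [InnerProductSpace ℂ H] [CompleteSpace H]
      (M N : VonNeumannAlgebra H),
      ballDist (M : Set (H →L[ℂ] H)) N < δ → NearConj ε (M : Set (H →L[ℂ] H)) N := by
  obtain ⟨C, h1, h2⟩ := Vale.Agent.P096.kkStmt.{u}
  have h3 : 0 < C := by linarith
  have h4 : C * (min 1 (ε / 2) / C) = min 1 (ε / 2) := mul_div_cancel₀ _ h3.ne'
  refine ⟨min 1 (ε / 2) / C, by positivity, fun H _ _ _ M N hd => ?_⟩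
  obtain ⟨u, u1, u2, u3⟩ := h2 H M N _ (Vale.Agent.P096.nr_of hd)
    (Vale.Agent.P096.nr_of (Metric.hausdorffDist_comm.trans_lt hd)) (by positivity)
    (h4.trans_le (min_le_left _ _))
  exact ⟨u, u1, by linarith [min_le_right 1 (ε / 2)], Vale.Agent.P096.image_eq u1 u3⟩

end Vale.Agent.Results.P096.Full
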