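import Vale.Agent.P096.Amp

open scoped ComplexOrder

namespace Vale.Agent.Results.P096.TypeTwoOne

universe u

/-- A complex star algebra with trivial centre, of infinite dimension, with a faithful tracial
state for whose 2-norm it is separable. -/
def IsSepTwoOne (A : Type*) [Ring A] [StarRing A] [Algebra ℂ A] : Prop :=
  (∀ z : A, (∀ x, x * z = z * x) → ∃ c : ℂ, z = c • 1) ∧ ¬ FiniteDimensional ℂ A ∧
    ∃ τ : A →ₗ[ℂ] ℂ, τ 1 = 1 ∧ (∀ x, 0 ≤ τ (star x * x)) ∧ (∀ x y, τ (x * y) = τ (y * x)) ∧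
      (∀ x, τ (star x * x) = 0 → x = 0) ∧
      ∃ D : Set A, D.Countable ∧
        ∀ x, ∀ η : ℝ, 0 < η → ∃ d ∈ D, (τ (star (x - d) * (x - d))).re < η

/-- The Hausdorff distance of the parts of `S` and `T` in the closed unit ball. -/
noncomputable def ballDist {B : Type*} [NormedRing B] (S T : Set B) : ℝ :=
  Metric.hausdorffDist (S ∩ Metric.closedBall 0 1) (T ∩ Metric.closedBall 0 1)

/-- `S` is carried onto `T` by a unitary at distance less than `ε` from the unit. -/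
def NearConj {B : Type*} [NormedRing B] [StarRing B] (ε : ℝ) (S T : Set B) : Prop :=
  ∃ u ∈ unitary B, ‖u - 1‖ < ε ∧ (fun x => u * x * star u) '' S = T

/-- The strong Kadison-Kastler conjecture, with a universal `δ`, when `M` is a type II_1 factor
with separable predual and `N` is an arbitrary von Neumann algebra. -/
theorem result (ε : ℝ) (hε : 0 < ε) : ∃ δ : ℝ, 0 < δ ∧
    ∀ (H : Type u) [NormedAddCommGroup H] [InnerProductSpace ℂ H] [CompleteSpace H]
      (M N : VonNeumannAlgebra H), IsSepTwoOne M.toStarSubalgebra →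
      ballDist (M : Set (H →L[ℂ] H)) N < δ → NearConj ε (M : Set (H →L[ℂ] H)) N := by
  open Vale.Agent.P085 Vale.Agent.P096 in
  have k : 0 < kk ^ 3 := by have := kk1; positivity
  open Vale.Agent.P085 Vale.Agent.P096 in
  refine ⟨min (1 / 10 ^ 50) (ε / 10 ^ 12) / kk ^ 3, by positivity,
    fun H _ _ _ M N ⟨hf, hi, τ, h1, hp, ht, hz, D, d1, d2⟩ hd => ?_⟩
  open Vale.Agent.P085 Vale.Agent.P096 in
  let _ : TrAlg (MA M) := ⟨τ, h1, ht, star_of_pos τ h1 hp,
    fun x => (Complex.nonneg_iff.1 (hp x)).1, hz⟩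
  open Vale.Agent.P085 Vale.Agent.P096 in
  obtain ⟨u, u1, u2, u3⟩ := kk_main (fun z hz h => by
      obtain ⟨c, hc⟩ := hf ⟨z, hz⟩ fun x => Subtype.ext (h x.1 x.2)
      exact ⟨c, congrArg Subtype.val hc⟩) hi ⟨D, d1, fun x η h => by
      obtain ⟨d, a, b⟩ := d2 x _ (pow_pos h 2)
      exact ⟨d, a, lt_of_pow_lt_pow_left₀ 2 h.le ((n2_sq _).trans_lt b)⟩⟩ (nr_of hd)
    (nr_of (Metric.hausdorffDist_comm.trans_lt hd)) (by positivity)
    (by rw [mul_div_cancel₀ _ k.ne']; exact min_le_left _ _)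
  rw [mul_div_cancel₀ _ k.ne'] at u2
  exact ⟨u, u1, by linarith [min_le_right (1 / 10 ^ 50) (ε / 10 ^ 12)],
    Vale.Agent.P096.image_eq u1 u3⟩

end Vale.Agent.Results.P096.TypeTwoOne
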